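import Mathlib

/-!
# A back-and-forth construction of separable closed subspaces

Given continuous maps `F : X → Y`, `G : Y → X` between real normed spaces and two vectors of `X`,
there are closed separable subspaces `E ≤ X`, `E' ≤ Y` containing the two vectors with
`F E ⊆ E'` and `G E' ⊆ E`.
-/

open Metric TopologicalSpace Set

namespace Vale.Agent.Lib.P084

universe u v

variable {X : Type u} {Y : Type v} [NormedAddCommGroup X] [NormedSpace ℝ X]
  [NormedAddCommGroup Y] [NormedSpace ℝ Y]

/-- the increasing chain of subspaces of `X` -/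
noncomputable def chainX (F : X → Y) (G : Y → X) (x y : X) : ℕ → Submodule ℝ X
  | 0 => Submodule.span ℝ {x, y}
  | (n + 1) => Submodule.span ℝ ((chainX F G x y n : Set X) ∪
      G '' (Submodule.span ℝ (F '' (chainX F G x y n : Set X)) : Set Y))

/-- the increasing chain of subspaces of `Y` -/
noncomputable def chainY (F : X → Y) (G : Y → X) (x y : X) (n : ℕ) : Submodule ℝ Y :=
  Submodule.span ℝ (F '' (chainX F G x y n : Set X))

lemma chainX_succ (F : X → Y) (G : Y → X) (x y : X) (n : ℕ) :
    chainX F G x y (n + 1) = Submodule.span ℝ ((chainX F G x y n : Set X) ∪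
      G '' (chainY F G x y n : Set Y)) := rfl

lemma chainX_le_succ (F : X → Y) (G : Y → X) (x y : X) (n : ℕ) :
    chainX F G x y n ≤ chainX F G x y (n + 1) := by
  intro a ha
  rw [chainX_succ]
  exact Submodule.subset_span (Or.inl ha)

lemma chainX_mono (F : X → Y) (G : Y → X) (x y : X) : Monotone (chainX F G x y) :=
  monotone_nat_of_le_succ (chainX_le_succ F G x y)

lemma chainY_mono (F : X → Y) (G : Y → X) (x y : X) : Monotone (chainY F G x y) := by
  intro n m h
  exact Submodule.span_mono (image_mono (chainX_mono F G x y h))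

lemma map_chainX (F : X → Y) (G : Y → X) (x y : X) (n : ℕ) (a : X)
    (ha : a ∈ chainX F G x y n) : F a ∈ chainY F G x y n :=
  Submodule.subset_span ⟨a, ha, rfl⟩

lemma map_chainY (F : X → Y) (G : Y → X) (x y : X) (n : ℕ) (b : Y)
    (hb : b ∈ chainY F G x y n) : G b ∈ chainX F G x y (n + 1) := by
  rw [chainX_succ]
  exact Submodule.subset_span (Or.inr ⟨b, hb, rfl⟩)

lemma chainX_sep (F : X → Y) (G : Y → X) (hF : Continuous F) (hG : Continuous G) (x y : X)
    (n : ℕ) : IsSeparable (chainX F G x y n : Set X) := by
  induction n with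
  | zero =>
    exact ((Set.toFinite ({x, y} : Set X)).isSeparable).span
  | succ n ih =>
    rw [chainX_succ]
    exact (ih.union (((ih.image hF).span).image hG)).span

lemma chainY_sep (F : X → Y) (G : Y → X) (hF : Continuous F) (hG : Continuous G) (x y : X)
    (n : ℕ) : IsSeparable (chainY F G x y n : Set Y) :=
  ((chainX_sep F G hF hG x y n).image hF).span

theorem exists_closed_separable_pair (F : X → Y) (G : Y → X) (hF : Continuous F)
    (hG : Continuous G) (x y : X) :
    ∃ (E : Submodule ℝ X) (E' : Submodule ℝ Y),
      IsClosed (E : Set X) ∧ IsSeparable (E : Set X) ∧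
      IsClosed (E' : Set Y) ∧ IsSeparable (E' : Set Y) ∧
      x ∈ E ∧ y ∈ E ∧ (∀ a ∈ E, F a ∈ E') ∧ (∀ b ∈ E', G b ∈ E) := by
  have dX : Directed (· ≤ ·) (chainX F G x y) := (chainX_mono F G x y).directed_le
  have dY : Directed (· ≤ ·) (chainY F G x y) := (chainY_mono F G x y).directed_le
  refine ⟨(⨆ n, chainX F G x y n).topologicalClosure, (⨆ n, chainY F G x y n).topologicalClosure,
    Submodule.isClosed_topologicalClosure _, ?_, Submodule.isClosed_topologicalClosure _, ?_,
    ?_, ?_, ?_, ?_⟩
  · rw [Submodule.topologicalClosure_coe, Submodule.coe_iSup_of_directed _ dX]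
    exact (IsSeparable.iUnion (chainX_sep F G hF hG x y)).closure
  · rw [Submodule.topologicalClosure_coe, Submodule.coe_iSup_of_directed _ dY]
    exact (IsSeparable.iUnion (chainY_sep F G hF hG x y)).closure
  · apply Submodule.le_topologicalClosure
    apply (le_iSup (chainX F G x y) 0)
    exact Submodule.subset_span (by simp)
  · apply Submodule.le_topologicalClosure
    apply (le_iSup (chainX F G x y) 0)
    exact Submodule.subset_span (by simp)
  · intro a ha
    have ha' : a ∈ closure ((⨆ n, chainX F G x y n : Submodule ℝ X) : Set X) := by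
      rwa [← Submodule.topologicalClosure_coe]
    have : F a ∈ closure ((⨆ n, chainY F G x y n : Submodule ℝ Y) : Set Y) := by
      refine map_mem_closure hF ha' ?_
      intro c hc
      obtain ⟨n, hn⟩ := (Submodule.mem_iSup_of_directed _ dX).mp hc
      exact (le_iSup (chainY F G x y) n) (map_chainX F G x y n c hn)
    rwa [← Submodule.topologicalClosure_coe] at this
  · intro b hb
    have hb' : b ∈ closure ((⨆ n, chainY F G x y n : Submodule ℝ Y) : Set Y) := by
      rwa [← Submodule.topologicalClosure_coe]
    have : G b ∈ closure ((⨆ n, chainX F G x y n : Submodule ℝ X) : Set X) := by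
      refine map_mem_closure hG hb' ?_
      intro c hc
      obtain ⟨n, hn⟩ := (Submodule.mem_iSup_of_directed _ dY).mp hc
      exact (le_iSup (chainX F G x y) (n + 1)) (map_chainY F G x y n c hn)
    rwa [← Submodule.topologicalClosure_coe] at this

end Vale.Agent.Lib.P084
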