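import Mathlib

/-!
# Positively homogeneous extension of a map between unit spheres

Helper file for P084 (Tingley's problem).
-/

open Metric TopologicalSpace Set
open scoped Classical

set_option linter.unusedSectionVars false

namespace Vale.Agent.Lib.P084

universe u v

variable {X : Type u} {Y : Type v} [NormedAddCommGroup X] [NormedSpace ℝ X]
  [NormedAddCommGroup Y] [NormedSpace ℝ Y]

/-- normalisation of a nonzero vector, as a point of the unit sphere -/
noncomputable def nrm (x : X) (hx : x ≠ 0) : sphere (0 : X) 1 :=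
  ⟨‖x‖⁻¹ • x, by
    rw [mem_sphere_zero_iff_norm, norm_smul, norm_inv, norm_norm]
    exact inv_mul_cancel₀ (norm_ne_zero_iff.mpr hx)⟩

lemma coe_nrm (x : X) (hx : x ≠ 0) : ((nrm x hx : sphere (0 : X) 1) : X) = ‖x‖⁻¹ • x := rfl

lemma norm_smul_nrm (x : X) (hx : x ≠ 0) : ‖x‖ • ((nrm x hx : sphere (0 : X) 1) : X) = x := by
  rw [coe_nrm, smul_smul, mul_inv_cancel₀ (norm_ne_zero_iff.mpr hx), one_smul]

lemma norm_coe_sphere (u : sphere (0 : X) 1) : ‖(u : X)‖ = 1 :=
  mem_sphere_zero_iff_norm.mp u.2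

lemma coe_sphere_ne_zero (u : sphere (0 : X) 1) : (u : X) ≠ 0 := by
  intro h
  have := norm_coe_sphere u
  rw [h, norm_zero] at this
  exact zero_ne_one this

lemma nrm_coe (u : sphere (0 : X) 1) : nrm (u : X) (coe_sphere_ne_zero u) = u := by
  apply Subtype.ext
  rw [coe_nrm, norm_coe_sphere, inv_one, one_smul]

lemma nrm_smul (x : X) (hx : x ≠ 0) (t : ℝ) (ht : 0 < t) (h' : t • x ≠ 0) :
    nrm (t • x) h' = nrm x hx := by
  apply Subtype.ext
  rw [coe_nrm, coe_nrm, norm_smul, Real.norm_of_nonneg ht.le, smul_smul, mul_inv, mul_assoc,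
    mul_comm _ t, ← mul_assoc, inv_mul_cancel₀ ht.ne', one_mul]

/-- the positively homogeneous extension of a map between unit spheres -/
noncomputable def homExt (f : sphere (0 : X) 1 → sphere (0 : Y) 1) (x : X) : Y :=
  if hx : x = 0 then 0 else ‖x‖ • (f (nrm x hx) : Y)

lemma homExt_zero (f : sphere (0 : X) 1 → sphere (0 : Y) 1) : homExt f 0 = 0 := by
  simp [homExt]

lemma homExt_of_ne (f : sphere (0 : X) 1 → sphere (0 : Y) 1) (x : X) (hx : x ≠ 0) :
    homExt f x = ‖x‖ • (f (nrm x hx) : Y) := by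
  simp [homExt, hx]

lemma norm_homExt (f : sphere (0 : X) 1 → sphere (0 : Y) 1) (x : X) : ‖homExt f x‖ = ‖x‖ := by
  by_cases hx : x = 0
  · simp [hx, homExt_zero]
  · rw [homExt_of_ne f x hx, norm_smul, norm_norm, norm_coe_sphere, mul_one]

lemma homExt_coe (f : sphere (0 : X) 1 → sphere (0 : Y) 1) (u : sphere (0 : X) 1) :
    homExt f (u : X) = f u := by
  rw [homExt_of_ne f _ (coe_sphere_ne_zero u), nrm_coe, norm_coe_sphere, one_smul]

lemma homExt_ne_zero (f : sphere (0 : X) 1 → sphere (0 : Y) 1) (x : X) (hx : x ≠ 0) :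
    homExt f x ≠ 0 := by
  rw [← norm_ne_zero_iff, norm_homExt]
  exact norm_ne_zero_iff.mpr hx

lemma nrm_homExt (f : sphere (0 : X) 1 → sphere (0 : Y) 1) (x : X) (hx : x ≠ 0) :
    nrm (homExt f x) (homExt_ne_zero f x hx) = f (nrm x hx) := by
  apply Subtype.ext
  rw [coe_nrm, norm_homExt, homExt_of_ne f x hx, smul_smul,
    inv_mul_cancel₀ (norm_ne_zero_iff.mpr hx), one_smul]

lemma homExt_leftInverse (f : sphere (0 : X) 1 → sphere (0 : Y) 1)
    (g : sphere (0 : Y) 1 → sphere (0 : X) 1) (hgf : ∀ u, g (f u) = u) (x : X) :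
    homExt g (homExt f x) = x := by
  by_cases hx : x = 0
  · simp [hx, homExt_zero]
  · rw [homExt_of_ne g _ (homExt_ne_zero f x hx), nrm_homExt f x hx, hgf, norm_homExt,
      norm_smul_nrm]

lemma dist_coe_sphere (u w : sphere (0 : X) 1) : dist u w = ‖(u : X) - (w : X)‖ := by
  rw [Subtype.dist_eq, dist_eq_norm]

lemma homExt_lipschitz (f : sphere (0 : X) 1 → sphere (0 : Y) 1) (hf : Isometry f) (x y : X) :
    ‖homExt f x - homExt f y‖ ≤ 3 * ‖x - y‖ := by
  by_cases hx : x = 0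
  · subst hx
    rw [homExt_zero, zero_sub, zero_sub, norm_neg, norm_neg, norm_homExt]
    nlinarith [norm_nonneg y]
  by_cases hy : y = 0
  · subst hy
    rw [homExt_zero, sub_zero, sub_zero, norm_homExt]
    nlinarith [norm_nonneg x]
  have hxn : ‖x‖ ≠ 0 := norm_ne_zero_iff.mpr hx
  have h1 : homExt f x - homExt f y
      = (‖x‖ - ‖y‖) • (f (nrm x hx) : Y) + ‖y‖ • ((f (nrm x hx) : Y) - (f (nrm y hy) : Y)) := by
    rw [homExt_of_ne f x hx, homExt_of_ne f y hy, sub_smul, smul_sub]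
    abel
  have h2 : ‖(f (nrm x hx) : Y) - (f (nrm y hy) : Y)‖
      = ‖((nrm x hx : sphere (0 : X) 1) : X) - ((nrm y hy : sphere (0 : X) 1) : X)‖ := by
    rw [← dist_coe_sphere, ← dist_coe_sphere, hf.dist_eq]
  have h3 : ‖y‖ • (((nrm x hx : sphere (0 : X) 1) : X) - ((nrm y hy : sphere (0 : X) 1) : X))
      = (‖y‖ - ‖x‖) • ((nrm x hx : sphere (0 : X) 1) : X) + (x - y) := by
    rw [smul_sub, norm_smul_nrm y hy, sub_smul, norm_smul_nrm x hx]
    abel
  have h4 : |‖x‖ - ‖y‖| ≤ ‖x - y‖ := abs_norm_sub_norm_le x y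
  have h5 : |‖y‖ - ‖x‖| ≤ ‖x - y‖ := by rw [abs_sub_comm]; exact h4
  calc ‖homExt f x - homExt f y‖
      ≤ ‖(‖x‖ - ‖y‖) • (f (nrm x hx) : Y)‖
          + ‖‖y‖ • ((f (nrm x hx) : Y) - (f (nrm y hy) : Y))‖ := by
        rw [h1]; exact norm_add_le _ _
    _ = |‖x‖ - ‖y‖| + ‖‖y‖ • (((nrm x hx : sphere (0 : X) 1) : X)
          - ((nrm y hy : sphere (0 : X) 1) : X))‖ := by
        rw [norm_smul, norm_coe_sphere, mul_one, Real.norm_eq_abs, norm_smul, h2, norm_smul]
    _ ≤ |‖x‖ - ‖y‖| + (|‖y‖ - ‖x‖| + ‖x - y‖) := by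
        rw [h3]
        gcongr
        refine (norm_add_le _ _).trans ?_
        rw [norm_smul, norm_coe_sphere, mul_one, Real.norm_eq_abs]
    _ ≤ 3 * ‖x - y‖ := by linarith

lemma homExt_continuous (f : sphere (0 : X) 1 → sphere (0 : Y) 1) (hf : Isometry f) :
    Continuous (homExt f) := by
  have : LipschitzWith 3 (homExt f) := by
    apply LipschitzWith.of_dist_le_mul
    intro x y
    rw [dist_eq_norm, dist_eq_norm]
    simpa using homExt_lipschitz f hf x y
  exact this.continuous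

end Vale.Agent.Lib.P084
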