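import Mathlib
import Vale.Agent.Lib.P084.HomExt
import Vale.Agent.Lib.P084.BackForth

/-!
# Separable determination of the Mazur-Ulam property
-/

open Metric TopologicalSpace Set

namespace Vale.Agent.Lib.P084

universe u v

variable {X : Type u} {Y : Type v} [NormedAddCommGroup X] [NormedSpace ℝ X]
  [NormedAddCommGroup Y] [NormedSpace ℝ Y]

/-- If the homogeneous extension of a surjective isometry of spheres is additive, the isometry
extends linearly. -/
theorem extends_of_additive (f : sphere (0 : X) 1 → sphere (0 : Y) 1) (hf : Isometry f)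
    (hs : Function.Surjective f)
    (hadd : ∀ x y : X, homExt f (x + y) = homExt f x + homExt f y) :
    ∃ T : X ≃ₗᵢ[ℝ] Y, ∀ x : sphere (0 : X) 1, T (x : X) = (f x : Y) := by
  let A : X →+ Y := AddMonoidHom.mk' (homExt f) hadd
  let L : X →L[ℝ] Y := A.toRealLinearMap (homExt_continuous f hf)
  have hL : ∀ x, L x = homExt f x := fun x => rfl
  let I : X →ₗᵢ[ℝ] Y := ⟨L.toLinearMap, fun x => by
    show ‖L x‖ = ‖x‖
    rw [hL, norm_homExt]⟩
  have hI : ∀ x, I x = homExt f x := fun x => rfl
  have hsurj : Function.Surjective I := by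
    intro y
    by_cases hy : y = 0
    · exact ⟨0, by rw [hy, map_zero]⟩
    · obtain ⟨u, hu⟩ := hs (nrm y hy)
      refine ⟨‖y‖ • (u : X), ?_⟩
      rw [map_smul, hI, homExt_coe, hu, norm_smul_nrm]
  refine ⟨LinearIsometryEquiv.ofSurjective I hsurj, fun x => ?_⟩
  show I (x : X) = f x
  rw [hI, homExt_coe]

/-- A linear isometry that agrees with `f` on the sphere agrees with `homExt f` everywhere
(version for subspaces). -/
theorem sep_additive [CompleteSpace X] [CompleteSpace Y]
    (hsep : ∀ E : Submodule ℝ X, IsClosed (E : Set X) → IsSeparable (E : Set X) → Nontrivial E →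
      ∀ (Z : Type v) [NormedAddCommGroup Z] [NormedSpace ℝ Z] [CompleteSpace Z] [SeparableSpace Z]
        [Nontrivial Z]
        (g : sphere (0 : E) 1 → sphere (0 : Z) 1), Isometry g → Function.Surjective g →
        ∃ T : E ≃ₗᵢ[ℝ] Z, ∀ x : sphere (0 : E) 1, T (x : E) = (g x : Z))
    (f : sphere (0 : X) 1 → sphere (0 : Y) 1) (hf : Isometry f) (hs : Function.Surjective f)
    (x y : X) : homExt f (x + y) = homExt f x + homExt f y := by
  by_cases hx0 : x = 0
  · rw [hx0, zero_add, homExt_zero, zero_add]
  -- the inverse isometry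
  let e : sphere (0 : X) 1 ≃ sphere (0 : Y) 1 := Equiv.ofBijective f ⟨hf.injective, hs⟩
  let g : sphere (0 : Y) 1 → sphere (0 : X) 1 := e.symm
  have hgf : ∀ u, g (f u) = u := fun u => e.symm_apply_apply u
  have hfg : ∀ w, f (g w) = w := fun w => e.apply_symm_apply w
  have hg : Isometry g := by
    apply Isometry.of_dist_eq
    intro a b
    rw [← hf.dist_eq (g a) (g b), hfg, hfg]
  obtain ⟨E, E', hEc, hEs, hE'c, hE's, hx, hy, hFE, hGE⟩ :=
    exists_closed_separable_pair (homExt f) (homExt g) (homExt_continuous f hf)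
      (homExt_continuous g hg) x y
  have : CompleteSpace E := hEc.completeSpace_coe
  have : CompleteSpace E' := hE'c.completeSpace_coe
  have : SeparableSpace E' := hE's.separableSpace
  have hEn : Nontrivial E := ⟨⟨⟨x, hx⟩, 0, fun h => hx0 (congrArg Subtype.val h)⟩⟩
  have : Nontrivial E' := ⟨⟨⟨homExt f x, hFE x hx⟩, 0,
    fun h => homExt_ne_zero f x hx0 (congrArg Subtype.val h)⟩⟩
  -- lifting points of the small spheres to the big spheres
  let up : sphere (0 : E) 1 → sphere (0 : X) 1 := fun u => ⟨((u : E) : X), by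
    rw [mem_sphere_zero_iff_norm, ← Submodule.coe_norm]; exact norm_coe_sphere u⟩
  have hup : ∀ u, ((up u : sphere (0 : X) 1) : X) = ((u : E) : X) := fun u => rfl
  have hmem : ∀ u : sphere (0 : E) 1, ((f (up u) : sphere (0 : Y) 1) : Y) ∈ E' := by
    intro u
    rw [← homExt_coe f (up u)]
    exact hFE _ (u : E).2
  let fE : sphere (0 : E) 1 → sphere (0 : E') 1 := fun u =>
    ⟨⟨(f (up u) : Y), hmem u⟩, by
      rw [mem_sphere_zero_iff_norm, Submodule.coe_norm]; exact norm_coe_sphere (f (up u))⟩
  have hfE : ∀ u, (((fE u : sphere (0 : E') 1) : E') : Y) = (f (up u) : Y) := fun u => rfl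
  have hfEiso : Isometry fE := by
    apply Isometry.of_dist_eq
    intro a b
    have h1 : dist (fE a) (fE b) = dist (f (up a)) (f (up b)) := rfl
    have h2 : dist a b = dist (up a) (up b) := rfl
    rw [h1, h2, hf.dist_eq]
  have hfEsurj : Function.Surjective fE := by
    intro w
    let w' : sphere (0 : Y) 1 := ⟨((w : E') : Y), by
      rw [mem_sphere_zero_iff_norm, ← Submodule.coe_norm]; exact norm_coe_sphere w⟩
    have hm : ((g w' : sphere (0 : X) 1) : X) ∈ E := by
      rw [← homExt_coe g w']
      exact hGE _ (w : E').2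
    let u : sphere (0 : E) 1 := ⟨⟨(g w' : X), hm⟩, by
      rw [mem_sphere_zero_iff_norm, Submodule.coe_norm]; exact norm_coe_sphere (g w')⟩
    refine ⟨u, ?_⟩
    apply Subtype.ext
    apply Subtype.ext
    rw [hfE]
    have : up u = g w' := Subtype.ext rfl
    rw [this, hfg]
  obtain ⟨T, hT⟩ := hsep E hEc hEs hEn E' fE hfEiso hfEsurj
  -- `T` agrees with the homogeneous extension on `E`
  have key : ∀ a : E, ((T a : E') : Y) = homExt f (a : X) := by
    intro a
    by_cases ha : a = 0
    · subst ha
      simp [homExt_zero]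
    · have ha' : (a : X) ≠ 0 := fun h => ha (Subtype.ext h)
      have h1 : a = ‖a‖ • ((nrm a ha : sphere (0 : E) 1) : E) := (norm_smul_nrm a ha).symm
      have h2 : up (nrm a ha) = nrm (a : X) ha' := by
        apply Subtype.ext
        rw [hup, coe_nrm, coe_nrm]
        simp
      conv_lhs => rw [h1]
      rw [map_smul, hT, Submodule.coe_smul, hfE, h2, homExt_of_ne f _ ha', Submodule.coe_norm]
  have hxy := key (⟨x, hx⟩ + ⟨y, hy⟩)
  rw [map_add, Submodule.coe_add, key, key] at hxy
  exact hxy.symm

end Vale.Agent.Lib.P084
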